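import Mathlib.Analysis.SpecialFunctions.Pow.Real
import Mathlib.Tactic

/-! Row CRACKS of the window variant: the real-number part.  The upper and the lower display of
Lemma U for the pair (f, Q), with a noise scale proportional to `κ`, show that the gradient of `f`
carries almost no energy in the directions of `Q`. -/

namespace Vale.Agent.P245.H154

open Real

/-- `(a+b+c+d)² ≤ 4 (a²+b²+c²+d²)` -/
lemma four_sq (a b c d : ℝ) :
    (a + b + c + d) ^ 2 ≤ 4 * (a ^ 2 + b ^ 2 + c ^ 2 + d ^ 2) := by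
  nlinarith [sq_nonneg (a - b), sq_nonneg (a - c), sq_nonneg (a - d), sq_nonneg (b - c),
    sq_nonneg (b - d), sq_nonneg (c - d)]

/-- abstract core: `L ≤ κ (√x + E)²`, `κ (1 - l) m ≤ L`, `E² ≤ g² m` give
`(1 - 2 l - 2 g) m ≤ x` -/
lemma root_core {κ L x E m l g : ℝ} (hκ : 0 < κ) (hx : 0 ≤ x) (hE : 0 ≤ E) (hm : 0 ≤ m)
    (hl : 0 ≤ l) (hg : 0 ≤ g) (h1 : L ≤ κ * (√x + E) ^ 2) (h2 : κ * ((1 - l) * m) ≤ L)
    (h3 : E ^ 2 ≤ g ^ 2 * m) : (1 - 2 * l - 2 * g) * m ≤ x := by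
  rcases le_or_gt (1 - l - g) 0 with h | h
  · have : (1 - 2 * l - 2 * g) * m ≤ 0 := mul_nonpos_of_nonpos_of_nonneg (by linarith) hm
    linarith
  · have hsm : √m ^ 2 = m := Real.sq_sqrt hm
    have hsx : √x ^ 2 = x := Real.sq_sqrt hx
    have hs0 : 0 ≤ √m := Real.sqrt_nonneg m
    have hx0 : 0 ≤ √x := Real.sqrt_nonneg x
    have h4 : (1 - l) * m ≤ (√x + E) ^ 2 := le_of_mul_le_mul_left (h2.trans h1) hκ
    have hE2 : E ≤ g * √m := by
      refine (abs_le_of_sq_le_sq' ?_ (by positivity)).2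
      rw [mul_pow, hsm]; exact h3
    have h5 : ((1 - l) * √m) ^ 2 ≤ (√x + E) ^ 2 := by
      have : ((1 - l) * √m) ^ 2 ≤ (1 - l) * m := by
        rw [mul_pow, hsm]
        have : (1 - l) ^ 2 ≤ (1 - l) := by nlinarith
        exact mul_le_mul_of_nonneg_right this hm
      linarith
    have h6 : (1 - l) * √m ≤ √x + E := (abs_le_of_sq_le_sq' h5 (by positivity)).2
    have h7 : (1 - l - g) * √m ≤ √x := by nlinarith
    have h8 : ((1 - l - g) * √m) ^ 2 ≤ √x ^ 2 :=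
      pow_le_pow_left₀ (by positivity) h7 2
    rw [mul_pow, hsm, hsx] at h8
    have h9 : (1 - 2 * l - 2 * g) ≤ (1 - l - g) ^ 2 := by nlinarith [sq_nonneg (l + g)]
    nlinarith [mul_le_mul_of_nonneg_right h9 hm]

/-- the four error terms of the upper display -/
lemma err_bound {κ C0 b t tc F e q1 Dv M ep h θ : ℝ} (hκ : 0 < κ) (hC0 : 1 ≤ C0)
    (hb : 2 * (κ / C0) ≤ b) (hep : 0 < ep) (ht : t = ep * b) (hF : 0 < F)
    (hh0 : 0 ≤ h) (hθ : 0 < θ) (hθ1 : θ ≤ 1)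
    (htc : tc * (1 + h) = 2 * M * κ) (hM : 0 < M) (he0 : 0 ≤ e)
    (hep1 : ep ≤ θ ^ 2 / 1000) (hM1 : C0 / ep ≤ θ ^ 2 / 1000 * M)
    (he : 2 * κ * e ≤ (1 + h) * F) (hq0 : 0 ≤ q1) (hq : q1 ≤ κ * F / 4) (hD0 : 0 ≤ Dv)
    (hD : Dv ≤ C0 * F) :
    (√(q1 / t) + √Dv + √F + √(t / b * (F + tc * e))) ^ 2 ≤ (θ / 10) ^ 2 * (M * F) ∧
      tc * e ≤ M * F ∧ 0 ≤ tc * e := by
  have hb0 : 0 < b := lt_of_lt_of_le (by positivity) hb
  have ht0 : 0 < t := by rw [ht]; positivity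
  have h1h : 0 < 1 + h := by linarith
  have htc' : tc = 2 * M * κ / (1 + h) := by rw [eq_div_iff h1h.ne']; exact htc
  have htc0 : 0 < tc := by rw [htc']; positivity
  have htce : tc * e ≤ M * F := by
    have : tc * e = M * (2 * κ * e) / (1 + h) := by rw [htc']; ring
    rw [this, div_le_iff₀ h1h]
    nlinarith [mul_le_mul_of_nonneg_left he hM.le]
  have htce0 : 0 ≤ tc * e := by positivity
  refine ⟨?_, htce, htce0⟩
  have htb : t / b = ep := by rw [ht]; field_simp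
  have hC : C0 ≤ θ ^ 2 / 1000 * M * ep := by
    rwa [div_le_iff₀ hep] at hM1
  have a1 : q1 / t ≤ θ ^ 2 / 8000 * (M * F) := by
    have hb1 : κ / b ≤ C0 / 2 := by
      rw [div_le_iff₀ hb0]
      have : C0 / 2 * (2 * (κ / C0)) ≤ C0 / 2 * b := mul_le_mul_of_nonneg_left hb (by linarith)
      have e1 : C0 / 2 * (2 * (κ / C0)) = κ := by field_simp
      linarith
    have : q1 / t ≤ (κ * F / 4) / t := div_le_div_of_nonneg_right hq ht0.le
    have e2 : (κ * F / 4) / t = κ / b * (F / (4 * ep)) := by rw [ht]; field_simp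
    have e3 : κ / b * (F / (4 * ep)) ≤ C0 / 2 * (F / (4 * ep)) :=
      mul_le_mul_of_nonneg_right hb1 (by positivity)
    have e4 : C0 / 2 * (F / (4 * ep)) = (C0 / ep) * (F / 8) := by field_simp; ring
    have e5 : (C0 / ep) * (F / 8) ≤ (θ ^ 2 / 1000 * M) * (F / 8) :=
      mul_le_mul_of_nonneg_right hM1 (by positivity)
    calc q1 / t ≤ (θ ^ 2 / 1000 * M) * (F / 8) := by linarith
      _ = θ ^ 2 / 8000 * (M * F) := by ring
  have hepM : ep ≤ 1 / 1000 := by nlinarith [sq_nonneg θ]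
  have hCM : C0 ≤ θ ^ 2 / 1000000 * M := by
    have : θ ^ 2 / 1000 * M * ep ≤ θ ^ 2 / 1000 * M * (1 / 1000) :=
      mul_le_mul_of_nonneg_left hepM (by positivity)
    linarith
  have a2 : Dv ≤ θ ^ 2 / 1000000 * (M * F) := by
    have : C0 * F ≤ (θ ^ 2 / 1000000 * M) * F := mul_le_mul_of_nonneg_right hCM hF.le
    linarith
  have a3 : F ≤ θ ^ 2 / 1000000 * (M * F) := by
    have : 1 * F ≤ (θ ^ 2 / 1000000 * M) * F :=
      mul_le_mul_of_nonneg_right (hC0.trans hCM) hF.le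
    linarith
  have a4 : t / b * (F + tc * e) ≤ θ ^ 2 / 500 * (M * F) := by
    rw [htb]
    have h1M : F ≤ M * F := by
      have : θ ^ 2 / 1000000 ≤ 1 := by nlinarith
      have hMF : 0 ≤ M * F := by positivity
      nlinarith
    have : ep * (F + tc * e) ≤ θ ^ 2 / 1000 * (F + tc * e) :=
      mul_le_mul_of_nonneg_right hep1 (by positivity)
    have h2 : θ ^ 2 / 1000 * (F + tc * e) ≤ θ ^ 2 / 1000 * (2 * (M * F)) :=
      mul_le_mul_of_nonneg_left (by linarith) (by positivity)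
    linarith
  have hMF : 0 ≤ M * F := by positivity
  have b1 : √(q1 / t) ^ 2 = q1 / t := Real.sq_sqrt (by positivity)
  have b2 : √Dv ^ 2 = Dv := Real.sq_sqrt hD0
  have b3 : √F ^ 2 = F := Real.sq_sqrt hF.le
  have b4 : √(t / b * (F + tc * e)) ^ 2 = t / b * (F + tc * e) := Real.sq_sqrt (by positivity)
  have := four_sq (√(q1 / t)) (√Dv) (√F) (√(t / b * (F + tc * e)))
  rw [b1, b2, b3, b4] at this
  have hX : 0 ≤ θ ^ 2 * (M * F) := by positivity
  nlinarith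

/-- the lower side of the crack step -/
lemma low_bound {κ C0 b t tc F e Vf Co be M ep h θ : ℝ} (hκ : 0 < κ) (hC0 : 1 ≤ C0)
    (hb0 : 0 < b) (hb' : b ≤ 3 * (κ / C0)) (hep : 0 < ep) (ht : t = ep * b)
    (hF : 0 < F) (hh0 : 0 ≤ h) (hθ : 0 < θ) (hθ1 : θ ≤ 1) (hh1 : h ≤ θ / 20)
    (htc : tc * (1 + h) = 2 * M * κ) (hM : 0 < M)
    (hep1 : ep ≤ θ ^ 2 / 1000) (hM1 : C0 / ep ≤ θ ^ 2 / 1000 * M)
    (hV : (1 - h) * F ≤ Vf) (hCo : Co ≤ h * F) (E2 : tc * e ≤ M * F)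
    (hbe : be ≤ θ / 20 * (M * κ * F)) :
    κ * ((1 - (θ / 4)) * (M * F)) ≤ tc / 2 * (Vf - Co) - be - t / 2 * (F + tc * e) := by
  have h1h : 0 < 1 + h := by linarith
  have htc' : tc = 2 * M * κ / (1 + h) := by rw [eq_div_iff h1h.ne']; exact htc
  have htc0 : 0 < tc := by rw [htc']; positivity
  have ht0 : 0 < t := by rw [ht]; positivity
  have hX : 0 ≤ M * κ * F := by positivity
  have l1 : tc / 2 * (Vf - Co) ≥ M * κ * F * (1 - 3 * h) := by
    have h1 : tc / 2 * (Vf - Co) ≥ tc / 2 * ((1 - 2 * h) * F) :=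
      mul_le_mul_of_nonneg_left (by linarith) (by positivity)
    have h2 : tc / 2 * ((1 - 2 * h) * F) = (M * κ * F) * ((1 - 2 * h) / (1 + h)) := by
      rw [htc']; field_simp
    have h3 : (1 - 3 * h) ≤ (1 - 2 * h) / (1 + h) := by
      rw [le_div_iff₀ h1h]
      have : 0 ≤ h ^ 2 := sq_nonneg h
      linarith [this, (by ring : (1 - 3 * h) * (1 + h) = 1 - 2 * h - 3 * h ^ 2)]
    have h4 : (M * κ * F) * (1 - 3 * h) ≤ (M * κ * F) * ((1 - 2 * h) / (1 + h)) :=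
      mul_le_mul_of_nonneg_left h3 hX
    linarith
  have hθ2 : θ ^ 2 ≤ θ := by
    have : θ * θ ≤ θ * 1 := mul_le_mul_of_nonneg_left hθ1 hθ.le
    linarith [sq θ]
  have hep2 : ep ≤ θ / 1000 := by linarith
  have l2 : t / 2 * (F + tc * e) ≤ M * κ * F * (θ / 100) := by
    have h1M : F ≤ M * F := by
      have h1 : C0 ≤ θ ^ 2 / 1000 * M * ep := by rwa [div_le_iff₀ hep] at hM1
      have h2 : θ ^ 2 / 1000 * ep ≤ 1 := by
        have : θ ^ 2 / 1000 * ep ≤ 1 * 1 :=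
          mul_le_mul (by linarith) (by linarith) hep.le (by norm_num)
        linarith
      have h3 : θ ^ 2 / 1000 * M * ep ≤ M := by
        have : M * (θ ^ 2 / 1000 * ep) ≤ M * 1 := mul_le_mul_of_nonneg_left h2 hM.le
        linarith
      have h4 : 1 ≤ M := by linarith
      have : 1 * F ≤ M * F := mul_le_mul_of_nonneg_right h4 hF.le
      linarith
    have h2 : t / 2 * (F + tc * e) ≤ t / 2 * (2 * (M * F)) :=
      mul_le_mul_of_nonneg_left (by linarith) (by positivity)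
    have h3 : t ≤ ep * (3 * κ) := by
      rw [ht]
      have : κ / C0 ≤ κ := div_le_self hκ.le hC0
      exact mul_le_mul_of_nonneg_left (by linarith) hep.le
    have h4 : ep * (3 * κ) ≤ θ / 1000 * (3 * κ) :=
      mul_le_mul_of_nonneg_right hep2 (by positivity)
    have h6 : t ≤ θ / 100 * κ := by
      have : 0 ≤ θ * κ := by positivity
      linarith
    have h7 : t * (M * F) ≤ θ / 100 * κ * (M * F) :=
      mul_le_mul_of_nonneg_right h6 (by positivity)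
    linarith
  have l4 : M * κ * F * (1 - 3 * h) ≥ M * κ * F * (1 - 3 * (θ / 20)) :=
    mul_le_mul_of_nonneg_left (by linarith) hX
  have l5 : 0 ≤ θ * (M * κ * F) := by positivity
  linarith

/-- the numeric form of the crack step -/
theorem crack_num {κ C0 b t tc F e Vf Co be RE q1 Dv M ep h θ : ℝ} (hκ : 0 < κ) (hC0 : 1 ≤ C0)
    (hb : 2 * (κ / C0) ≤ b) (hb' : b ≤ 3 * (κ / C0)) (hep : 0 < ep) (ht : t = ep * b)
    (hF : 0 < F) (hh0 : 0 ≤ h) (hθ : 0 < θ) (hθ1 : θ ≤ 1) (hh1 : h ≤ θ / 20)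
    (htc : tc * (1 + h) = 2 * M * κ) (he0 : 0 ≤ e) (hRE : 0 ≤ RE)
    (hep1 : ep ≤ θ ^ 2 / 1000) (hM1 : C0 / ep ≤ θ ^ 2 / 1000 * M)
    (hV : (1 - h) * F ≤ Vf) (hCo : Co ≤ h * F)
    (he : 2 * κ * e ≤ (1 + h) * F) (hq0 : 0 ≤ q1) (hq : q1 ≤ κ * F / 4) (hD0 : 0 ≤ Dv)
    (hD : Dv ≤ C0 * F) (hbe : be ≤ θ / 20 * (M * κ * F))
    (LU : tc / 2 * (Vf - Co) - be - t / 2 * (F + tc * e)
      ≤ κ * (√(tc * RE) + √(q1 / t) + √Dv + √F + √(t / b * (F + tc * e))) ^ 2) :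
    2 * κ * (e - RE) ≤ θ * F := by
  have hM : 0 < M := by
    have h1 : 0 < C0 / ep := by positivity
    have h2 : 0 < θ ^ 2 / 1000 * M := lt_of_lt_of_le h1 hM1
    exact (pos_iff_pos_of_mul_pos h2).1 (by positivity)
  have h1h : 0 < 1 + h := by linarith
  have htc' : tc = 2 * M * κ / (1 + h) := by rw [eq_div_iff h1h.ne']; exact htc
  have htc0 : 0 < tc := by rw [htc']; positivity
  have hb0 : 0 < b := lt_of_lt_of_le (by positivity) hb
  obtain ⟨E1, E2, E3⟩ := err_bound hκ hC0 hb hep ht hF hh0 hθ hθ1 htc hM he0 hep1 hM1 he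
    hq0 hq hD0 hD
  have l3 := low_bound hκ hC0 hb0 hb' hep ht hF hh0 hθ hθ1 hh1 htc hM hep1 hM1 hV hCo E2 hbe
  have hx : 0 ≤ tc * RE := by positivity
  have LU' : tc / 2 * (Vf - Co) - be - t / 2 * (F + tc * e)
      ≤ κ * (√(tc * RE) + (√(q1 / t) + √Dv + √F + √(t / b * (F + tc * e)))) ^ 2 := by
    have e1 : √(tc * RE) + (√(q1 / t) + √Dv + √F + √(t / b * (F + tc * e)))
        = √(tc * RE) + √(q1 / t) + √Dv + √F + √(t / b * (F + tc * e)) := by ring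
    rw [e1]; exact LU
  have key := root_core (m := M * F) (l := θ / 4) (g := θ / 10) hκ hx (by positivity)
    (by positivity) (by positivity) (by positivity) LU' l3 E1
  have k1 : tc * (e - RE) ≤ (7 / 10 * θ) * (M * F) := by linarith
  have k2 : tc * (e - RE) = M / (1 + h) * (2 * κ * (e - RE)) := by rw [htc']; ring
  rw [k2] at k1
  have k3 : 2 * κ * (e - RE) ≤ (7 / 10 * θ) * (1 + h) * F := by
    have hc : 0 < M / (1 + h) := by positivity
    refine le_of_mul_le_mul_left (k1.trans (le_of_eq ?_)) hc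
    field_simp
  have k4 : (7 / 10 * θ) * (1 + h) * F ≤ θ * F := by
    have k5 : (7 / 10 * θ) * (1 + h) ≤ (7 / 10 * θ) * (1 + 1 / 20) :=
      mul_le_mul_of_nonneg_left (by linarith) (by positivity)
    have : (7 / 10 * θ) * (1 + h) ≤ θ := by linarith
    exact mul_le_mul_of_nonneg_right this hF.le
  linarith

/-- the crack bound: `cr = E tr S² Q`, `S2 = κ² (e - AA/4)` -/
theorem crack_final {κ F e RE AA S2 cr h θ : ℝ} (hκ : 0 < κ)
    (hθ : 0 < θ) (hθ1 : θ ≤ 1) (hh1 : h ≤ θ / 20) (he0 : 0 ≤ e)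
    (he' : (1 - h) * F ≤ 2 * κ * e) (hA : AA ≤ h * e)
    (hRE : 2 * κ * (e - RE) ≤ θ * F) (hS2 : S2 = κ ^ 2 * (e - AA / 4))
    (hcr : cr ≤ 2 * κ ^ 2 * (e - RE) + κ ^ 2 * AA / 2) : cr ≤ 3 * θ * S2 := by
  have h1 : κ * (2 * κ * (e - RE)) ≤ κ * (θ * F) := mul_le_mul_of_nonneg_left hRE hκ.le
  have h2 : F ≤ 2 * κ * e / (1 - h) := by
    rw [le_div_iff₀ (by linarith)]; linarith
  have h3 : 2 * κ * e / (1 - h) ≤ (11 / 10) * (2 * κ * e) := by
    rw [div_le_iff₀ (by linarith)]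
    have : 0 ≤ 2 * κ * e := by positivity
    nlinarith
  have h4 : F ≤ 11 / 10 * (2 * κ * e) := h2.trans h3
  have h5 : κ * (θ * F) ≤ κ * (θ * (11 / 10 * (2 * κ * e))) := by gcongr
  have h6 : κ ^ 2 * AA ≤ κ ^ 2 * (h * e) := by gcongr
  have h7 : κ ^ 2 * (h * e) ≤ κ ^ 2 * (θ / 20 * e) := by gcongr
  have h8 : κ ^ 2 * (θ / 20 * e) ≤ κ ^ 2 * (1 / 20 * e) := by
    have : θ / 20 ≤ 1 / 20 := by linarith
    gcongr
  have hE : 0 ≤ κ ^ 2 * e := by positivity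
  have h9 : S2 ≥ κ ^ 2 * e * (79 / 80) := by rw [hS2]; nlinarith
  have h10 : cr ≤ θ * (κ ^ 2 * e) * (22 / 10 + 1 / 40) := by nlinarith
  have h11 : 3 * θ * S2 ≥ 3 * θ * (κ ^ 2 * e * (79 / 80)) :=
    mul_le_mul_of_nonneg_left h9 (by positivity)
  nlinarith [mul_nonneg hθ.le hE]

/-- the size of the divergence term -/
lemma div_bound {κ C0 b F B1 Fl q1 G : ℝ} (hκ : 0 < κ) (hC0 : 4 ≤ C0)
    (hb : 2 * (κ / C0) ≤ b) (hF : 0 < F) (hB : B1 ≤ 2 * F)
    (hq : q1 ≤ κ * F / 4) (hFl : Fl ≤ q1 / b) (hG0 : 0 ≤ G) (hG : κ * G ≤ F) :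
    B1 + Fl + √G * √q1 ≤ C0 * F := by
  have hb0 : 0 < b := lt_of_lt_of_le (by positivity) hb
  have h1 : q1 / b ≤ C0 / 8 * F := by
    rw [div_le_iff₀ hb0]
    have : C0 / 8 * F * (2 * (κ / C0)) ≤ C0 / 8 * F * b :=
      mul_le_mul_of_nonneg_left hb (by positivity)
    have e1 : C0 / 8 * F * (2 * (κ / C0)) = κ * F / 4 := by field_simp; norm_num
    linarith
  have h2 : √G * √q1 ≤ F / 2 := by
    rw [← Real.sqrt_mul hG0]
    apply Real.sqrt_le_iff.2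
    refine ⟨by positivity, ?_⟩
    have : G * q1 ≤ G * (κ * F / 4) := mul_le_mul_of_nonneg_left hq hG0
    nlinarith [mul_le_mul_of_nonneg_right hG hF.le]
  nlinarith

end Vale.Agent.P245.H154
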