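import Vale.Agent.P245.H154.Cracks
import Vale.Agent.P245.H485.FinDefs
import Vale.Agent.P245.H468.ChR

/-! Row CRACKS of the window variant: the assembly in the vocabulary of the row FIN. -/

open MeasureTheory Real Set Filter Topology

namespace Vale.Agent.P245.H154

open LS E1 Vale.Agent.P254.SP620 H792 H485

variable {n : ℕ} {μ : Measure (Fin n → ℝ)} [IsProbabilityMeasure μ] {b : ℝ}
  {N : (Fin n → ℝ) → ℝ} {f : Fin n → (Fin n → ℝ) → ℝ}

omit [IsProbabilityMeasure μ] in
/-- the restricted energy in the other order of summation -/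
theorem vRE_eq (Q : (Fin n → ℝ) → Matrix (Fin n) (Fin n) ℝ) :
    vRE μ b N f Q = EY μ b fun y => N y * ∑ i, ∑ e,
      (pd (f i) e y - ∑ g, Q y e g * pd (f i) g y) ^ 2 := by
  unfold vRE
  congr 1
  funext y
  rw [Finset.sum_comm]

/-- the channel `RL tc f` cannot predict `f` -/
theorem co_RL {tc V x X : ℝ} (hN : Pos N) (h1 : EY μ b N = 1) (hf : ∀ i, SB (f i))
    (ht : 0 ≤ tc) (hV : IP μ b N f f ≤ V) (hx : tc / 2 * V ≤ x) (hP : Pred μ b N f x X) :
    H468.Co (gsn n) μ b N f (H468.RL tc f) ≤ X := by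
  have hc := (H468.ch_RL (n := n) hf ht)
  have hI : H468.Inf (gsn n) μ b N (H468.RL tc f) ≤ tc / 2 * H468.IP μ b N f f :=
    H468.Inf_RL_le hN h1 hf ht
  have hI' : E1.Inf μ b N (H468.RL tc f) ≤ x := by
    refine le_trans hI (le_trans ?_ hx)
    exact mul_le_mul_of_nonneg_left hV (by positivity)
  exact hP (H468.RL tc f) (H468.Ch.to_e1 hc) hI'

end Vale.Agent.P245.H154
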