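import Vale.Agent.P245.H154.Cracks2
import Vale.Agent.P245.H676.Cr4
import Vale.Agent.P245.H766.BOW
import Vale.Agent.P245.H991.Spec

/-! Row CRACKS of the window variant: at a good level the cracks carry no energy. -/

open MeasureTheory Real Set Filter Topology

namespace Vale.Agent.P245.H154

open LS E1 Vale.Agent.P254.SP620 H792 H485 H991

variable {n : ℕ} {N : (Fin n → ℝ) → ℝ} {f : Fin n → (Fin n → ℝ) → ℝ}

theorem sqrt_max0 (x : ℝ) : √(max x 0) = √x := by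
  rcases le_total x 0 with h | h
  · rw [max_eq_right h, Real.sqrt_zero, Real.sqrt_eq_zero_of_nonpos h]
  · rw [max_eq_left h]

/-- **Cracks carry no energy**: `E tr S² P_1(S) ≤ 3 θ E |S|²` at a good level, in the form used by
the row FIN. -/
theorem crack_lev {ρ0 : (Fin n → ℝ) → ℝ} {R : ℝ} (hLC : LCd ρ0) [IsProbabilityMeasure (mu ρ0)]
    (hμ : CSupp (mu ρ0) R) {C0 κ r h Ka M ep θ g0 : ℝ} (hκ : 0 < κ) (hC0 : 4 ≤ C0)
    (hG : GLev (mu ρ0) C0 κ r N f h Ka M) (hg : g0 ^ 2 ≤ FI (mu ρ0) r N / κ)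
    (hU : LUp (mu ρ0) κ r (ep * r) (Ka * FI (mu ρ0) r N) g0 N)
    (hθ : 0 < θ) (hθ1 : θ ≤ 1) (hh0 : 0 ≤ h) (hh : h ≤ θ / 20) (hep : 0 < ep)
    (hep1 : ep ≤ θ ^ 2 / 1000) (hM : C0 / ep ≤ θ ^ 2 / 1000 * M)
    (hKa : Ka ≤ θ / 20 * (M * κ)) :
    (1 - 3 * θ) * mSq (mu ρ0) r N (Sf κ f) ≤ mTr (mu ρ0) r N 1 (Sf κ f) := by
  have hC1 : 1 ≤ C0 := by linarith
  have hr : 0 < r := lt_of_lt_of_le (by positivity) hG.lo
  have hMpos : 0 < M := by
    have h1 : 0 < C0 / ep := by positivity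
    have h2 : 0 < θ ^ 2 / 1000 * M := lt_of_lt_of_le h1 hM
    exact (pos_iff_pos_of_mul_pos h2).1 (by positivity)
  have h1h : 0 < 1 + h := by linarith
  have hh1 : h ≤ 1 := by linarith
  set F := FI (mu ρ0) r N with hF
  have hF0 : 0 < F := hG.F0
  set S := Sf κ f with hS
  have hSB := H676.sbm_sf hG.sf κ
  have hsy := H676.sf_symm κ f
  have hQSB : SBm (PS 1 S) := H676.sbm_PS hSB hsy one_pos
  have hQsy : ∀ y, (PS 1 S y).transpose = PS 1 S y := fun y => H736.mf_symm' (hsy y) _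
  have hP1 : ∀ x, |Ps 1 x| ≤ 1 := by
    intro x
    have h2 : 0 ≤ x ^ 2 := sq_nonneg x
    unfold Ps
    rw [abs_of_nonneg (by positivity), div_le_one (by positivity)]
    linarith
  have hOp : OpQ (PS 1 S) := fun y => H766.fr_mf_mul_le (hsy y) hP1
  set tc := 2 * M * κ / (1 + h) with htc
  have htc0 : 0 ≤ tc := by positivity
  have htc1 : tc * (1 + h) = 2 * M * κ := by rw [htc]; field_simp
  have LU := hU n f (PS 1 S) tc hG.sf hQSB hQsy hOp htc0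
  have e1 : H468.IP (mu ρ0) r N f f = IP (mu ρ0) r N f f := rfl
  have e2 : H468.DE (mu ρ0) r N f = DE (mu ρ0) r N f := rfl
  rw [e1, e2] at LU
  have hCo : H468.Co (gsn n) (mu ρ0) r N f (H468.RL tc f) ≤ h * F := by
    refine co_RL hG.pos hG.one hG.sf htc0 hG.v_hi ?_ hG.co
    have : tc / 2 * ((1 + h) * F) = (tc * (1 + h)) * F / 2 := by ring
    rw [this, htc1]
    linarith
  have he0 : 0 ≤ DE (mu ρ0) r N f := H676.DE_nonneg hG.pos f
  have hRE : 0 ≤ fRE (mu ρ0) r N f (PS 1 S) := by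
    refine LS.EY_nonneg _ _ fun y => mul_nonneg ?_
      (Finset.sum_nonneg fun i _ => Finset.sum_nonneg fun j _ => sq_nonneg _)
    obtain ⟨ε, hε, hl⟩ := hG.pos.lb
    exact hε.le.trans (hl y)
  have hq0 := H676.mSq_nonneg (μ := mu ρ0) (r := r) hG.pos (PS 1 S)
  have hq := H676.crack_q (μ := mu ρ0) (r := r) hG.pos hG.sf hκ hh1 hF0.le hG.e_hi
  have hD : mDE (mu ρ0) r N (PS 1 S) + mFl (mu ρ0) r N (PS 1 S)
      + g0 * √(mSq (mu ρ0) r N (PS 1 S)) ≤ C0 * F := by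
    have h0 := H676.crack_dvb0 hLC hμ hr hG.pos hG.sf hκ hC0 hG.lo hh1 hF0.le hG.e_hi hG.tb
      zero_le_one (by rw [one_mul]; exact hg)
    refine h0.trans (mul_le_mul_of_nonneg_right ?_ hF0.le)
    rw [Real.sqrt_one]
    linarith
  rw [← sqrt_max0 (mDE (mu ρ0) r N (PS 1 S) + mFl (mu ρ0) r N (PS 1 S)
      + g0 * √(mSq (mu ρ0) r N (PS 1 S)))] at LU
  have hD0 := le_max_right (mDE (mu ρ0) r N (PS 1 S) + mFl (mu ρ0) r N (PS 1 S)
      + g0 * √(mSq (mu ρ0) r N (PS 1 S))) 0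
  have hD' := max_le hD (show 0 ≤ C0 * F by positivity)
  have key := crack_num (be := Ka * F) hκ hC1 hG.lo hG.hi hep rfl hF0 hh0 hθ hθ1 hh htc1 he0
    hRE hep1 hM hG.v_lo hCo hG.e_hi hq0 hq hD0 hD' (by nlinarith) LU
  have hv : fRE (mu ρ0) r N f (PS 1 S) = vRE (mu ρ0) r N f (PS 1 S) := (vRE_eq _).symm
  rw [hv] at key
  have hcr := H676.crm (μ := mu ρ0) (r := r) hG.pos hG.sf (κ := κ) one_pos
  have fin := crack_final (cr := mSq (mu ρ0) r N S - mTr (mu ρ0) r N 1 S) hκ hθ hθ1 hh he0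
    hG.e_lo hG.aa key (H676.mSq_sf hG.pos hG.sf κ) (by linarith)
  linarith

end Vale.Agent.P245.H154
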