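import Vale.Agent.P245.H154.Cracks3
import Vale.Agent.P245.H670.OfGL
import Vale.Agent.P245.H792.MCd

/-! The static half of the window variant: assembly. -/

open MeasureTheory Real Set Filter Topology

namespace Vale.Agent.P245.H154

open LS E1 Vale.Agent.P254.SP620 H792 H485 H991

variable {n : ℕ} {μ : Measure (Fin n → ℝ)} {b : ℝ} {N : (Fin n → ℝ) → ℝ}

theorem fr_sum (A : Matrix (Fin n) (Fin n) ℝ) : fr A = ∑ i, ∑ j, A i j ^ 2 := rfl

theorem ip_mat {m : ℕ} (e : Fin m ≃ Fin n × Fin n)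
    (A : (Fin n → ℝ) → Matrix (Fin n) (Fin n) ℝ) :
    H468.IP μ b N (fun a y => A y (e a).1 (e a).2) (fun a y => A y (e a).1 (e a).2)
      = mSq μ b N A := by
  unfold H468.IP mSq
  congr 1
  funext y
  congr 1
  rw [fr_sum, ← Fintype.sum_prod_type' (f := fun i j => A y i j ^ 2)]
  rw [← Equiv.sum_comp e (fun p : Fin n × Fin n => A y p.1 p.2 ^ 2)]
  exact Finset.sum_congr rfl fun a _ => by ring

theorem de_mat {m : ℕ} (e : Fin m ≃ Fin n × Fin n)
    (A : (Fin n → ℝ) → Matrix (Fin n) (Fin n) ℝ) :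
    H468.DE μ b N (fun a y => A y (e a).1 (e a).2) = mDE μ b N A := by
  unfold H468.DE mDE
  congr 1
  funext y
  congr 1
  rw [Finset.sum_comm]
  refine Finset.sum_congr rfl fun k _ => ?_
  rw [← Fintype.sum_prod_type' (f := fun i j => pd (fun z => A z i j) k y ^ 2)]
  exact Equiv.sum_comp e (fun p : Fin n × Fin n => pd (fun z => A z p.1 p.2) k y ^ 2)

theorem re_mat {m : ℕ} (e : Fin m ≃ Fin n × Fin n)
    (A Q : (Fin n → ℝ) → Matrix (Fin n) (Fin n) ℝ) :
    fRE μ b N (fun a y => A y (e a).1 (e a).2) Q = mRE μ b N A Q := by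
  unfold fRE mRE
  congr 1
  funext y
  congr 1
  rw [Finset.sum_comm]
  refine Finset.sum_congr rfl fun k _ => ?_
  rw [← Fintype.sum_prod_type' (f := fun i j =>
    (pd (fun z => A z i j) k y - ∑ f, Q y k f * pd (fun z => A z i j) f y) ^ 2)]
  exact Equiv.sum_comp e (fun p : Fin n × Fin n =>
    (pd (fun z => A z p.1 p.2) k y - ∑ f, Q y k f * pd (fun z => A z p.1 p.2) f y) ^ 2)

theorem lus_of_lup {κ t θ g0 be : ℝ} {S : (Fin n → ℝ) → Matrix (Fin n) (Fin n) ℝ}
    (hS : SBm S) (hsym : ∀ y, (S y).transpose = S y) (hθ : 0 ≤ θ)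
    (hU : LUp μ κ b t be g0 N) : LUS μ b κ t θ g0 be N S := by
  intro s hs m e
  have hQSB : SBm (PS s S) := H676.sbm_PS hS hsym hs.1
  have hQsy : ∀ y, (PS s S y).transpose = PS s S y := fun y => H736.mf_symm' (hsym y) _
  have hP : ∀ x, |Ps s x| ≤ 1 := fun x => by
    rw [abs_of_nonneg (Ps_nonneg s x)]; exact Ps_le_one s x
  have hOp : OpQ (PS s S) := fun y => H766.fr_mf_mul_le (hsym y) hP
  have h := hU m (fun a y => PS s S y (e a).1 (e a).2) (PS s S) θ (fun a => hQSB _ _) hQSB hQsy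
    hOp hθ
  rw [ip_mat, de_mat, re_mat] at h
  exact h

/-- **the static half** -/
theorem staticT : StaticT := by
  refine ⟨2000000, 1 / 20000, 1 / 10 ^ 8, 10 ^ 23, by norm_num, by norm_num, by norm_num,
    by norm_num, by norm_num, by norm_num, by norm_num, ?_⟩
  intro Ka
  obtain ⟨K, hK0, hK⟩ := fin_S (C0 := 2000000) (ε := 1 / 10 ^ 8) (Ka := |Ka|) (Kg := 1)
    (h := 1 / 20000) (by norm_num) (by norm_num) (abs_nonneg _) zero_le_one le_rfl (by norm_num)
  refine ⟨max K |Ka|, ?_⟩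
  intro n ρ0 R κ r N f g0 _ hL hP hC hE hκ hG hg0 hg hU
  have hκ1 : K ≤ κ := (le_max_left _ _).trans hκ
  have hκ2 : |Ka| ≤ κ := (le_max_right _ _).trans hκ
  have hκ0 : 0 < κ := lt_of_lt_of_le hK0 hκ1
  have hr : 0 < r := lt_of_lt_of_le (by positivity) hG.lo
  have hs := H670.sout_of_glev hL hC (by norm_num) hκ0 (by norm_num) (by norm_num) hG
  have hcr := crack_lev (θ := 1 / 300) hL hC hκ0 (by norm_num) hG hg hU (by norm_num)
    (by norm_num) (by norm_num) (by norm_num) (by norm_num) (by norm_num) (by norm_num)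
    (by
      have h1 : Ka ≤ κ := (le_abs_self _).trans hκ2
      nlinarith)
  have hMC := H792.mcout hL hC hr hG.pos hs.symm hs.sb
  have hLU := lus_of_lup (S := Sf κ f) (θ := 1 / 1000000 * r) hs.sb hs.symm (by positivity) hU
  have hF0 := hG.F0
  refine hK ρ0 R κ r g0 (Ka * FI (mu ρ0) r N) N (Sf κ f) hL hP hC hE hκ1 hG.lo hG.hi hG.pos
    hG.one hs.symm hs.sb hg0 (by rw [one_mul]; exact hg) ?_ hF0.le hG.he hs.pos hs.fi ?_ ?_ ?_
    hs.fl ?_ ?_ hMC hLU
  · exact mul_le_mul_of_nonneg_right (le_abs_self _) hF0.le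
  · refine hs.ds.trans (le_of_eq ?_)
    ring
  · refine hs.as.trans (le_of_eq ?_)
    ring
  · refine EY_nonneg _ _ fun y => mul_nonneg (hG.pos.pos y).le ?_
    have := nq_nonneg (PV_nonneg hL hC hr y) (Sf κ f y)
    unfold nq at this
    exact this
  · have h1 := hcr
    have e1 : (1 - 3 * (1 / 300) : ℝ) = 99 / 100 := by norm_num
    rw [e1] at h1
    exact h1
  · exact mTr_le hG.pos hs.sb hs.symm r one_pos

end Vale.Agent.P245.H154
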